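import Vale.Agent.P328.Coeff
open Finset

namespace Vale.Agent.Results.P328.RowSumsAtMostTwo

open Vale.Agent.P328

/-- The univariate column polynomial `∑_{0 ≤ d ≤ t/2} y^d / (d! (t - 2 d)!)`. -/
noncomputable def colpoly (t : ℕ) : Polynomial ℚ :=
  ∑ d ∈ range (t / 2 + 1),
    Polynomial.C (1 / ((d.factorial : ℚ) * ((t - 2 * d).factorial : ℚ))) * Polynomial.X ^ d

lemma coeff_prod_colpoly {n : ℕ} (c : Fin n → ℕ) (k : ℕ) :
    (∏ j, colpoly (c j)).coeff k =
      ∑ δ ∈ Fintype.piFinset (fun j => range (c j / 2 + 1)),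
        if ∑ j, δ j = k then
          ∏ j, (1 / (((δ j).factorial : ℚ) * ((c j - 2 * δ j).factorial : ℚ))) else 0 := by
  classical
  simp only [colpoly]
  rw [Finset.prod_univ_sum, Polynomial.finsetSum_coeff]
  apply Finset.sum_congr rfl
  intro δ _
  rw [Finset.prod_mul_distrib, Finset.prod_pow_eq_pow_sum, ← map_prod,
    Polynomial.coeff_C_mul_X_pow]
  by_cases h : ∑ j, δ j = k
  · rw [if_pos h, if_pos h.symm]
  · rw [if_neg h, if_neg (fun h' => h h'.symm)]

lemma multinomial_cast {n : ℕ} (d : Fin n → ℕ) :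
    ((Nat.multinomial univ d : ℕ) : ℚ) = ((∑ j, d j).factorial : ℚ) * ∏ j, (1 / ((d j).factorial : ℚ)) := by
  have h := Nat.multinomial_spec univ d
  have h' : ((∏ j, (d j).factorial : ℕ) : ℚ) * ((Nat.multinomial univ d : ℕ) : ℚ)
      = ((∑ j, d j).factorial : ℚ) := by exact_mod_cast h
  have hne : ((∏ j, (d j).factorial : ℕ) : ℚ) ≠ 0 := by
    exact_mod_cast (Finset.prod_pos fun j _ => Nat.factorial_pos (d j)).ne'
  rw [← h']
  simp only [one_div, Finset.prod_inv_distrib]
  push_cast at hne ⊢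
  field_simp

lemma cf_eq_coeff {n : ℕ} (c : Fin n → ℕ) (s k : ℕ) (hs : s + 2 * k = ∑ j, c j) :
    cf c (p1 n ^ s * p2 n ^ k) =
      (k.factorial : ℚ) * (s.factorial : ℚ) * (∏ j, colpoly (c j)).coeff k := by
  classical
  rw [cf_p1_pow_mul_p2_pow c s k hs, coeff_prod_colpoly, ← Finset.sum_filter, ← Finset.sum_filter,
    Finset.mul_sum]
  have hset : (piAntidiag (univ : Finset (Fin n)) k).filter (fun d => ∀ j, 2 * d j ≤ c j)
      = (Fintype.piFinset (fun j => range (c j / 2 + 1))).filter (fun δ => ∑ j, δ j = k) := by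
    ext d
    simp only [mem_filter, mem_piAntidiag, mem_univ, implies_true, and_true,
      Fintype.mem_piFinset, mem_range]
    constructor
    · rintro ⟨h1, h2⟩
      exact ⟨fun j => by have := h2 j; omega, h1⟩
    · rintro ⟨h1, h2⟩
      exact ⟨h2, fun j => by have := h1 j; omega⟩
  rw [hset]
  apply Finset.sum_congr rfl
  intro d hd
  simp only [mem_filter, Fintype.mem_piFinset, mem_range] at hd
  obtain ⟨hd1, hd2⟩ := hd
  have hsum : ∑ j, (c j - 2 * d j) = s := by
    have h1 : ∑ j, (c j - 2 * d j) + ∑ j, 2 * d j = ∑ j, c j := by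
      rw [← Finset.sum_add_distrib]
      apply Finset.sum_congr rfl
      intro j _
      have := hd1 j
      omega
    rw [← Finset.mul_sum, hd2] at h1
    omega
  rw [multinomial_cast d, multinomial_cast (fun j => c j - 2 * d j), hd2, hsum]
  have : ∏ j, (1 / (((d j).factorial : ℚ) * ((c j - 2 * d j).factorial : ℚ)))
      = (∏ j, (1 / ((d j).factorial : ℚ))) * ∏ j, (1 / ((c j - 2 * d j).factorial : ℚ)) := by
    rw [← Finset.prod_mul_distrib]
    apply Finset.prod_congr rfl
    intro j _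
    rw [one_div_mul_one_div]
  rw [this]
  ring

/-- Exact count of contingency tables all of whose row sums are at most two
(any number of rows and columns, arbitrary column sums). -/
theorem result (m n : ℕ) (r : Fin m → ℕ) (c : Fin n → ℕ) (hr : ∀ i, r i ≤ 2)
    (hN : ∑ i, r i = ∑ j, c j) :
    (2 : ℚ) ^ (univ.filter fun i => r i = 2).card *
      (Nat.card {X : Fin m → Fin n → ℕ //
        (∀ i, ∑ j, X i j = r i) ∧ (∀ j, ∑ i, X i j = c j)} : ℚ) =
    ∑ k ∈ range ((univ.filter fun i => r i = 2).card + 1),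
      (((univ.filter fun i => r i = 2).card.choose k : ℕ) : ℚ) * (k.factorial : ℚ) *
        ((∑ j, c j - 2 * k).factorial : ℚ) * (∏ j, colpoly (c j)).coeff k := by
  classical
  set b := (univ.filter fun i => r i = 2).card with hb
  set a := (univ.filter fun i => r i = 1).card with ha
  have hab : a + 2 * b = ∑ j, c j := by
    rw [← hN, ha, hb, Finset.card_filter, Finset.card_filter, Finset.mul_sum,
      ← Finset.sum_add_distrib]
    apply Finset.sum_congr rfl
    intro i _
    have := hr i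
    interval_cases h : r i <;> simp
  rw [Nat.subtype_card (tablesFinset r c) (mem_tablesFinset r c), card_tables_eq]
  have h2 : (2 : ℚ) ^ b * cf c (∏ i, rowpoly n (r i))
      = cf c ((2 : MvPolynomial (Fin n) ℚ) ^ b * ∏ i, rowpoly n (r i)) := by
    have : (2 : MvPolynomial (Fin n) ℚ) ^ b = MvPolynomial.C ((2 : ℚ) ^ b) := by
      rw [map_pow]; rfl
    rw [this, ← MvPolynomial.smul_eq_C_mul, map_smul, smul_eq_mul]
  rw [h2, prod_rowpoly r hr, ← ha, ← hb, add_comm (p1 n ^ 2), add_pow, Finset.mul_sum, map_sum]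
  apply Finset.sum_congr rfl
  intro k hk
  have hk' : k ≤ b := Nat.lt_succ_iff.1 (mem_range.1 hk)
  have hs : (a + 2 * (b - k)) + 2 * k = ∑ j, c j := by omega
  have hs' : ∑ j, c j - 2 * k = a + 2 * (b - k) := by omega
  have hre : p1 n ^ a * (p2 n ^ k * (p1 n ^ 2) ^ (b - k) * ((b.choose k : ℕ) : MvPolynomial (Fin n) ℚ))
      = MvPolynomial.C ((b.choose k : ℕ) : ℚ) * (p1 n ^ (a + 2 * (b - k)) * p2 n ^ k) := by
    rw [pow_add, pow_mul]
    simp only [map_natCast]
    ring
  rw [hre, ← MvPolynomial.smul_eq_C_mul, map_smul, smul_eq_mul, cf_eq_coeff c _ k hs, hs']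
  ring

end Vale.Agent.Results.P328.RowSumsAtMostTwo
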